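import Mathlib

/-!
# P146: lower bound of a determinant near the identity (helper318)
-/

open Matrix

namespace Vale.Agent.P146.R2.H318

lemma log_ge {t : ℝ} (h : |t| ≤ 1 / 2) : -t - t ^ 2 ≤ Real.log (1 - t) := by
  have h1 : |t| < 1 := by linarith
  have h2 := Real.abs_log_sub_add_sum_range_le h1 4
  have h3 := (abs_le.1 h2).1
  simp only [Finset.sum_range_succ, Finset.sum_range_zero] at h3
  norm_num at h3
  have h0 : 0 ≤ |t| := abs_nonneg t
  have h4 : |t| ^ 5 / (1 - |t|) ≤ 2 * |t| ^ 5 := by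
    rw [div_le_iff₀ (by linarith)]
    have : 0 ≤ |t| ^ 5 := by positivity
    nlinarith
  have h5 : t ^ 3 ≤ |t| ^ 3 := by
    calc t ^ 3 ≤ |t ^ 3| := le_abs_self _
      _ = |t| ^ 3 := abs_pow _ _
  have h6 : t ^ 4 = |t| ^ 4 := by
    rw [← abs_pow, abs_of_nonneg (by positivity : (0 : ℝ) ≤ t ^ 4)]
  have h7 : t ^ 2 = |t| ^ 2 := (sq_abs t).symm
  have h8 : |t| ^ 3 / 3 + |t| ^ 4 / 4 + 2 * |t| ^ 5 ≤ |t| ^ 2 / 2 := by
    set s := |t|
    have : s ^ 2 / 2 - (s ^ 3 / 3 + s ^ 4 / 4 + 2 * s ^ 5) =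
        s ^ 2 * (1 / 2 - s / 3 - s ^ 2 / 4 - 2 * s ^ 3) := by ring
    have h9 : 0 ≤ 1 / 2 - s / 3 - s ^ 2 / 4 - 2 * s ^ 3 := by
      have a1 : s ^ 2 ≤ 1 / 4 := by nlinarith
      have a2 : s ^ 3 ≤ 1 / 8 := by nlinarith
      nlinarith
    have := mul_nonneg (sq_nonneg s) h9
    linarith
  linarith

theorem rowB {κ : Type} [Fintype κ] [DecidableEq κ] (K : Matrix κ κ ℝ) (hK : K.IsSymm)
    (hn : ∀ x : κ → ℝ, ∑ e, (K *ᵥ x) e ^ 2 ≤ 1 / 4 * ∑ e, x e ^ 2) :
    (1 - K).det ≠ 0 ∧ -K.trace - (K * K).trace ≤ Real.log |(1 - K).det| := by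
  have hH : K.IsHermitian := by
    rw [Matrix.IsHermitian, Matrix.conjTranspose_eq_transpose_of_trivial]; exact hK
  set l := hH.eigenvalues with hl
  -- the eigenvalues are at most 1/2
  have hle : ∀ i, |l i| ≤ 1 / 2 := by
    intro i
    have h1 := hn (hH.eigenvectorBasis i)
    have h2 : K *ᵥ (hH.eigenvectorBasis i) = l i • (hH.eigenvectorBasis i : κ → ℝ) :=
      hH.mulVec_eigenvectorBasis i
    rw [h2] at h1
    have h3 : ∑ e, (hH.eigenvectorBasis i : κ → ℝ) e ^ 2 = 1 := by
      have h4 : ‖hH.eigenvectorBasis i‖ = 1 := hH.eigenvectorBasis.orthonormal.1 i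
      have h5 := EuclideanSpace.norm_sq_eq (hH.eigenvectorBasis i)
      rw [h4] at h5
      simpa [sq_abs] using h5.symm
    have h6 : ∑ e, (l i • (hH.eigenvectorBasis i : κ → ℝ)) e ^ 2 = l i ^ 2 := by
      simp only [Pi.smul_apply, smul_eq_mul, mul_pow, ← Finset.mul_sum, h3, mul_one]
    rw [h6, h3] at h1
    exact abs_le_of_sq_le_sq' (by norm_num; linarith) (by norm_num) |> fun h => abs_le.2 h
  -- spectral theorem
  set U : Matrix κ κ ℝ := (hH.eigenvectorUnitary : Matrix κ κ ℝ) with hU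
  have hUU : U * star U = 1 := Unitary.mul_star_self_of_mem hH.eigenvectorUnitary.2
  have hUU' : star U * U = 1 := Unitary.star_mul_self_of_mem hH.eigenvectorUnitary.2
  have hS : K = U * diagonal l * star U := by
    have := hH.spectral_theorem
    simpa [Unitary.conjStarAlgAut_apply] using this
  have hdet : (1 - K).det = ∏ i, (1 - l i) := by
    have h1 : 1 - K = U * diagonal (fun i => 1 - l i) * star U := by
      have : diagonal (fun i => 1 - l i) = 1 - diagonal l := by
        rw [← diagonal_one, diagonal_sub]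
      rw [this, Matrix.mul_sub, Matrix.sub_mul, Matrix.mul_one, hUU, ← hS]
    rw [h1, det_mul, det_mul, mul_right_comm, ← det_mul, hUU, det_one, one_mul, det_diagonal]
  have htr : K.trace = ∑ i, l i := by
    rw [hS, Matrix.trace_mul_comm, ← Matrix.mul_assoc, hUU', Matrix.one_mul, trace_diagonal]
  have htr2 : (K * K).trace = ∑ i, l i ^ 2 := by
    have h1 : K * K = U * diagonal (fun i => l i ^ 2) * star U := by
      calc K * K = (U * diagonal l * star U) * (U * diagonal l * star U) := by rw [← hS]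
        _ = U * diagonal l * (star U * U) * diagonal l * star U := by
          simp only [Matrix.mul_assoc]
        _ = U * (diagonal l * diagonal l) * star U := by
          rw [hUU', Matrix.mul_one, Matrix.mul_assoc U]
        _ = _ := by
          rw [diagonal_mul_diagonal]; simp only [sq]
    rw [h1, Matrix.trace_mul_comm, ← Matrix.mul_assoc, hUU', Matrix.one_mul, trace_diagonal]
  have hpos : ∀ i, 0 < 1 - l i := fun i => by
    have := (abs_le.1 (hle i)).2
    linarith
  have hp : 0 < ∏ i, (1 - l i) := Finset.prod_pos fun i _ => hpos i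
  refine ⟨by rw [hdet]; exact hp.ne', ?_⟩
  rw [hdet, abs_of_pos hp, Real.log_prod fun i _ => (hpos i).ne', htr, htr2, ← Finset.sum_neg_distrib,
    ← Finset.sum_sub_distrib]
  exact Finset.sum_le_sum fun i _ => log_ge (hle i)

end Vale.Agent.P146.R2.H318
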